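import Vale.Agent.P287.H664.Eckardt

/-!
# Cubic fourfolds with Eckardt points

A smooth cubic fourfold with an Eckardt point `p` is rational as soon as it contains a plane not
passing through `p`, in particular as soon as it has a second Eckardt point.
-/

open MvPolynomial Vale.Agent.P287.H664

namespace Vale.Agent.Results.P287.EckardtPoints

/-- Let `X : F = 0` be a smooth cubic fourfold with an Eckardt point `p`.  Suppose that `X`
contains a plane `W` with `p ∉ W`, or that `X` has a second Eckardt point `q`.  Then `X` contains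
two disjoint planes, and `X` is rational. -/
theorem result (F : MvPolynomial (Fin 6) ℂ) (hF : IsSmoothCubicFourfold F) (p : Fin 6 → ℂ)
    (hp : IsEckardtPoint F p)
    (h : (∃ W : Submodule ℂ (Fin 6 → ℂ), IsPlaneIn F W ∧ p ∉ W) ∨
      (∃ q : Fin 6 → ℂ, IsEckardtPoint F q ∧ LinearIndependent ℂ ![p, q])) :
    (∃ U V : Submodule ℂ (Fin 6 → ℂ), IsPlaneIn F U ∧ IsPlaneIn F V ∧ U ⊓ V = ⊥) ∧
      IsRational F := by
  obtain ⟨W, hW, hpW⟩ : ∃ W : Submodule ℂ (Fin 6 → ℂ), IsPlaneIn F W ∧ p ∉ W := by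
    rcases h with h | ⟨q, hq, hpq⟩
    · exact h
    · exact plane_off_of_two_eckardt hF hq hpq
  obtain ⟨Q, hQ, hWQ⟩ := disjoint_of_plane_off hF hp hW hpW
  exact ⟨⟨W, Q, hW, hQ, hWQ⟩, rational_of_two_planes hF hW hQ hWQ⟩

end Vale.Agent.Results.P287.EckardtPoints
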