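import Mathlib
import Vale.Agent.P287.H528.ManyFinal

/-!
# Smooth cubic fourfolds containing many planes are rational
-/

open MvPolynomial Vale.Agent.P287.H528

namespace Vale.Agent.Results.P287.ManyPlanes

/-- Let `X = {F = 0}` be a smooth cubic fourfold.

(1) If `X` contains at least forty planes, then `X` is rational.

(2) Let `S` be the set of all planes contained in `X`.  Then `X` is rational if `S` has at least
twenty-eight elements and no plane in `X` meets all the other ones along lines, or if the number of
elements of `S` is even and `S` has more than twenty elements or contains two planes meeting along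
a line. -/
theorem result (F : MvPolynomial (Fin 6) ℂ) (hF : IsCubicFourfold F)
    (S : Finset (Submodule ℂ (Fin 6 → ℂ))) :
    ((∀ U ∈ S, IsPlaneIn F U) → 40 ≤ S.card → IsRationalFourfold F) ∧
    ((∀ U, U ∈ S ↔ IsPlaneIn F U) →
      (28 ≤ S.card ∧ ∀ U ∈ S, ∃ U' ∈ S, U ≠ U' ∧
          Module.finrank ℂ (U ⊓ U' : Submodule ℂ (Fin 6 → ℂ)) ≠ 2) ∨
        (Even S.card ∧ (21 ≤ S.card ∨ ∃ U ∈ S, ∃ U' ∈ S,
          Module.finrank ℂ (U ⊓ U' : Submodule ℂ (Fin 6 → ℂ)) = 2)) →
      IsRationalFourfold F) := by
  refine ⟨rational_of_forty_planes hF S, fun hS h => ?_⟩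
  rcases h with ⟨h1, h2⟩ | ⟨h1, h2⟩
  · exact rational_of_twentyeight_planes hF S hS h1 h2
  · exact rational_of_even_planes hF S hS h1 h2

end Vale.Agent.Results.P287.ManyPlanes
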