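import Mathlib
import Vale.Agent.P287.H528.Lattice

/-!
# Labellings spanned by `h²` and planes

If a smooth cubic fourfold `X` has a labelling `⟨h², z⟩` whose discriminant is not divisible by
four (in particular an admissible one), where `z` is an integral combination of `h²` and of
classes of planes contained in `X`, then `X` is rational.
-/

open MvPolynomial Vale.Agent.P287.H528

namespace Vale.Agent.Results.P287.PlaneLabelling

/-- Let `X = {F = 0}` be a smooth cubic fourfold, and let `z = a h² + ∑ n_U [U]` be an integral
combination of `h²` and of planes contained in `X`.  If the discriminant of `⟨h², z⟩` is not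
divisible by four, then `X` is rational. -/
theorem result (F : MvPolynomial (Fin 6) ℂ) (hF : IsCubicFourfold F) (a : ℤ)
    (n : Submodule ℂ (Fin 6 → ℂ) →₀ ℤ) (hn : ∀ U ∈ n.support, IsPlaneIn F U)
    (hd : ¬ 4 ∣ labelDisc a n) : IsRationalFourfold F := by
  obtain ⟨U, hU, U', hU', h⟩ :=
    exists_disjoint_of_not_four_dvd a n (fun U hU => (hn U hU).1) hd
  exact rational_of_disjoint_planes hF (hn U hU) (hn U' hU') h

end Vale.Agent.Results.P287.PlaneLabelling
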